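import Vale.Agent.P233.H37.Dens

/-!
# Bishop-Gromov, packing, properness, Ahlfors regularity (pure metric measure part of D1)
-/

open MeasureTheory Filter Topology Metric
open scoped ENNReal NNReal

namespace Vale.Agent.P233.H37

variable {X : Type*} [MetricSpace X]

/-- Bishop-Gromov with exponent `d` and constant `c` at the centres `p ∈ S`, radii `≤ 1`. -/
def BG [MeasurableSpace X] (m : Measure X) (d c : ℝ) (S : Set X) : Prop :=
  ∀ p ∈ S, ∀ t R : ℝ, 0 < t → t ≤ 1 → 0 < R → R ≤ 1 →
    ENNReal.ofReal (c * t ^ d) * m (ball p R) ≤ m (ball p (t * R))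

/-- Length space: almost midpoints of all ratios. -/
def LenSp (X : Type*) [MetricSpace X] : Prop :=
  ∀ x y : X, ∀ s t : ℝ, 0 ≤ s → 0 ≤ t → s + t = dist x y → ∀ ε > 0,
    ∃ w, dist x w ≤ s + ε ∧ dist w y ≤ t + ε

theorem lenSp_of_chains (h : ∀ x y : X, ∀ ε > 0, ∃ (k : ℕ) (z : ℕ → X), z 0 = x ∧ z k = y ∧
    (∀ i < k, dist (z i) (z (i + 1)) ≤ ε) ∧
    ∑ i ∈ Finset.range k, dist (z i) (z (i + 1)) ≤ dist x y + ε) : LenSp X := by
  classical
  intro x y s t hs ht hst ε hε
  obtain ⟨k, z, h0, hk, hstep, hsum⟩ := h x y (ε / 2) (by positivity)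
  set a : ℕ → ℝ := fun j => ∑ i ∈ Finset.range j, dist (z i) (z (i + 1)) with ha
  have ha0 : a 0 = 0 := by simp [ha]
  have hmono : Monotone a := by
    refine monotone_nat_of_le_succ fun j => ?_
    simp only [ha, Finset.sum_range_succ]
    linarith [dist_nonneg (x := z j) (y := z (j + 1))]
  have hdist : ∀ i j, i ≤ j → dist (z i) (z j) ≤ a j - a i := by
    intro i j hij
    induction j, hij using Nat.le_induction with
    | base => simp
    | succ j hj ih =>
      have : a (j + 1) = a j + dist (z j) (z (j + 1)) := by simp [ha, Finset.sum_range_succ]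
      linarith [dist_triangle (z i) (z j) (z (j + 1))]
  by_cases hks : a k ≤ s
  · refine ⟨y, ?_, by rw [dist_self]; positivity⟩
    have := hdist 0 k (Nat.zero_le _)
    rw [h0, hk, ha0] at this
    linarith
  · have hex : ∃ j, s < a j := ⟨k, not_le.1 hks⟩
    obtain ⟨j, hj⟩ : ∃ j, Nat.find hex = j + 1 := by
      refine Nat.exists_eq_succ_of_ne_zero fun h => ?_
      have := Nat.find_spec hex
      rw [h, ha0] at this
      linarith
    have hj1 : s < a (j + 1) := hj ▸ Nat.find_spec hex
    have hj2 : a j ≤ s := by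
      have := Nat.find_min hex (m := j) (by omega)
      exact not_lt.1 this
    have hjk : j < k := by
      have := Nat.find_min' hex (not_le.1 hks)
      omega
    refine ⟨z j, ?_, ?_⟩
    · have := hdist 0 j (Nat.zero_le _)
      rw [h0, ha0] at this
      linarith
    · have h1 := hdist j k hjk.le
      rw [hk] at h1
      have h2 : a (j + 1) = a j + dist (z j) (z (j + 1)) := by simp [ha, Finset.sum_range_succ]
      have h3 := hstep j hjk
      have h4 : a k ≤ dist x y + ε / 2 := hsum
      linarith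

section packing

variable [MeasurableSpace X] [BorelSpace X] {m : Measure X} {d c : ℝ} {S : Set X}

/-- Packing: the number of `δ s`-separated points in a ball of radius `s`. -/
theorem card_le_of_separated (hBG : BG m d c S) {y : X} {s δ : ℝ} (hs : 0 < s)
    (hs4 : s ≤ 1 / 4) (hδ : 0 < δ) (hδ1 : δ ≤ 1) (hpos : 0 < m (ball y (2 * s)))
    (hfin : m (ball y (2 * s)) < ∞) (F : Finset X) (hFS : ∀ p ∈ F, p ∈ S)
    (hF : ∀ p ∈ F, dist p y ≤ s) (hsep : ∀ p ∈ F, ∀ q ∈ F, p ≠ q → δ * s ≤ dist p q) :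
    (F.card : ℝ) * (c * (δ / 8) ^ d) ≤ 1 := by
  have h1 : ∀ p ∈ F, ENNReal.ofReal (c * (δ / 8) ^ d) * m (ball y (2 * s)) ≤
      m (ball p (δ * s / 2)) := by
    intro p hp
    have h2 := hBG p (hFS p hp) (δ / 8) (4 * s) (by positivity) (by linarith) (by positivity)
      (by linarith)
    have h3 : δ / 8 * (4 * s) = δ * s / 2 := by ring
    rw [h3] at h2
    refine le_trans ?_ h2
    gcongr
    refine ball_subset_ball' ?_
    have := hF p hp
    rw [dist_comm] at this
    linarith
  have h2 : ∑ p ∈ F, m (ball p (δ * s / 2)) ≤ m (ball y (2 * s)) := by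
    rw [← measure_biUnion_finset]
    · refine measure_mono (Set.iUnion₂_subset fun p hp => ball_subset_ball' ?_)
      have := hF p hp
      nlinarith
    · intro p hp q hq hpq
      have := hsep p hp q hq hpq
      exact ball_disjoint_ball (by linarith)
    · exact fun p _ => measurableSet_ball
  have h3 : (F.card : ℝ≥0∞) * ENNReal.ofReal (c * (δ / 8) ^ d) * m (ball y (2 * s)) ≤
      1 * m (ball y (2 * s)) := by
    rw [one_mul]
    refine le_trans ?_ h2
    calc (F.card : ℝ≥0∞) * ENNReal.ofReal (c * (δ / 8) ^ d) * m (ball y (2 * s))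
        = ∑ _p ∈ F, ENNReal.ofReal (c * (δ / 8) ^ d) * m (ball y (2 * s)) := by
          rw [Finset.sum_const, nsmul_eq_mul, mul_assoc]
      _ ≤ _ := Finset.sum_le_sum h1
  have h4 : (F.card : ℝ≥0∞) * ENNReal.ofReal (c * (δ / 8) ^ d) ≤ 1 :=
    (ENNReal.mul_le_mul_iff_left hpos.ne' hfin.ne).1 h3
  rw [← ENNReal.ofReal_natCast, ← ENNReal.ofReal_mul (by positivity), ← ENNReal.ofReal_one,
    ENNReal.ofReal_le_ofReal_iff (by norm_num)] at h4
  exact h4

/-- Small balls are totally bounded. -/
theorem totallyBounded_ball [m.IsOpenPosMeasure] (hc : 0 < c) (hBG : BG m d c S) {y : X}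
    (hS : closedBall y (1 / 4) ⊆ S) (hfin : m (ball y (1 / 2)) < ∞) :
    TotallyBounded (closedBall y (1 / 4)) := by
  classical
  rw [Metric.totallyBounded_iff]
  intro ε hε
  by_contra hcon
  push Not at hcon
  set δ : ℝ := min 1 (4 * ε) with hδ
  have hδ0 : 0 < δ := lt_min one_pos (by positivity)
  have hδε : δ * (1 / 4) ≤ ε := by
    have := min_le_right (1 : ℝ) (4 * ε)
    linarith
  have hstep : ∀ k : ℕ, ∃ F : Finset X, F.card = k ∧ (∀ p ∈ F, dist p y ≤ 1 / 4) ∧
      ∀ p ∈ F, ∀ q ∈ F, p ≠ q → δ * (1 / 4) ≤ dist p q := by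
    intro k
    induction k with
    | zero => exact ⟨∅, by simp, by simp, by simp⟩
    | succ k ih =>
      obtain ⟨F, hFk, hF1, hF2⟩ := ih
      have h1 := hcon (F : Set X) F.finite_toSet
      rw [Set.not_subset] at h1
      obtain ⟨x, hx1, hx2⟩ := h1
      simp only [Finset.mem_coe, Set.mem_iUnion, mem_ball, not_exists, not_lt] at hx2
      have hxF : x ∉ F := fun h => by
        have := hx2 x h
        rw [dist_self] at this
        linarith
      refine ⟨insert x F, by rw [Finset.card_insert_of_notMem hxF, hFk], ?_, ?_⟩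
      · intro p hp
        rcases Finset.mem_insert.1 hp with rfl | hp
        · exact hx1
        · exact hF1 p hp
      · intro p hp q hq hpq
        rw [Finset.mem_insert] at hp hq
        rcases hp with hp | hp <;> rcases hq with hq | hq
        · exact absurd (hp.trans hq.symm) hpq
        · rw [hp]; exact hδε.trans (hx2 q hq)
        · rw [hq, dist_comm]; exact hδε.trans (hx2 p hp)
        · exact hF2 p hp q hq hpq
  have hpos : 0 < c * (δ / 8) ^ d := by positivity
  obtain ⟨k, hk⟩ := exists_nat_gt (1 / (c * (δ / 8) ^ d))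
  obtain ⟨F, hFk, hF1, hF2⟩ := hstep k
  have h2 : (2 : ℝ) * (1 / 4) = 1 / 2 := by norm_num
  have := card_le_of_separated (m := m) hBG (y := y) (s := 1 / 4) (δ := δ) (by norm_num)
    le_rfl hδ0 (min_le_left _ _) (by rw [h2]; exact measure_ball_pos m y (by norm_num))
    (by rw [h2]; exact hfin) F (fun p hp => hS (hF1 p hp)) hF1 hF2
  rw [hFk] at this
  rw [div_lt_iff₀ hpos] at hk
  linarith

end packing

section proper

variable [MeasurableSpace X] [BorelSpace X] {m : Measure X} {d : ℝ}

theorem properSpace_of_BG [CompleteSpace X] [m.IsOpenPosMeasure] (x₀ : X)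
    (hfin : ∀ r : ℝ, m (ball x₀ r) < ∞)
    (hBG : ∀ A : ℝ, ∃ c : ℝ, 0 < c ∧ BG m d c (ball x₀ A)) (hL : LenSp X) : ProperSpace X := by
  have hsmall : ∀ y : X, TotallyBounded (closedBall y (1 / 4)) := by
    intro y
    obtain ⟨c, hc, hB⟩ := hBG (dist y x₀ + 1)
    refine totallyBounded_ball hc hB ?_ ?_
    · intro z hz
      rw [mem_closedBall] at hz
      rw [mem_ball]
      linarith [dist_triangle z y x₀]
    · refine (measure_mono ?_).trans_lt (hfin (dist y x₀ + 1))
      exact ball_subset_ball' (by linarith)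
  have hstep : ∀ k : ℕ, TotallyBounded (ball x₀ (((k : ℝ) + 1) / 16)) := by
    intro k
    induction k with
    | zero =>
      refine (hsmall x₀).subset fun z hz => ?_
      rw [mem_ball] at hz
      rw [mem_closedBall]
      push_cast at hz
      linarith
    | succ k ih =>
      obtain ⟨T, hT, hcov⟩ := Metric.totallyBounded_iff.1 ih (1 / 16) (by norm_num)
      have h1 : TotallyBounded (⋃ p ∈ T, closedBall p (1 / 4)) := by
        rw [totallyBounded_biUnion hT]
        exact fun p _ => hsmall p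
      refine h1.subset fun y hy => ?_
      rw [mem_ball] at hy
      push_cast at hy
      have hk0 : (0 : ℝ) ≤ k := Nat.cast_nonneg k
      obtain ⟨w, hw1, hw2⟩ : ∃ w, dist w x₀ < ((k : ℝ) + 1) / 16 ∧ dist w y ≤ 1 / 8 := by
        by_cases hyk : dist y x₀ < ((k : ℝ) + 1) / 16
        · exact ⟨y, hyk, by rw [dist_self]; norm_num⟩
        · rw [not_lt] at hyk
          obtain ⟨w, hw1, hw2⟩ := hL x₀ y (((k : ℝ) + 1) / 16 - 1 / 32)
            (dist x₀ y - (((k : ℝ) + 1) / 16 - 1 / 32)) (by linarith)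
            (by rw [dist_comm]; linarith) (by ring) (1 / 64) (by norm_num)
          refine ⟨w, ?_, ?_⟩
          · rw [dist_comm]; linarith
          · rw [dist_comm x₀ y] at hw2; linarith
      have hw3 := hcov (mem_ball.2 hw1)
      simp only [Set.mem_iUnion, mem_ball] at hw3 ⊢
      obtain ⟨p, hp, hwp⟩ := hw3
      refine ⟨p, hp, ?_⟩
      rw [mem_closedBall]
      have := dist_triangle y w p
      rw [dist_comm y w] at this
      linarith
  refine ⟨fun x r => ?_⟩
  refine isCompact_iff_totallyBounded_isComplete.2 ⟨?_, isClosed_closedBall.isComplete⟩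
  obtain ⟨k, hk⟩ := exists_nat_gt (16 * (r + dist x x₀))
  refine (hstep k).subset fun z hz => ?_
  rw [mem_closedBall] at hz
  rw [mem_ball]
  linarith [dist_triangle z x x₀]

omit [MeasurableSpace X] [BorelSpace X] in
/-- Existence of geodesics: points of all ratios. -/
theorem exists_between_of_proper [ProperSpace X] (hL : LenSp X) (x y : X) {s t : ℝ} (hs : 0 ≤ s)
    (ht : 0 ≤ t) (hst : s + t = dist x y) : ∃ w, dist x w = s ∧ dist w y = t := by
  choose w hw1 hw2 using fun n : ℕ => hL x y s t hs ht hst (1 / ((n : ℝ) + 1)) (by positivity)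
  have hmem : ∀ n, w n ∈ closedBall x (s + 1) := by
    intro n
    rw [mem_closedBall, dist_comm]
    refine (hw1 n).trans ?_
    have : 1 / ((n : ℝ) + 1) ≤ 1 := by
      rw [div_le_one (by positivity)]
      linarith [(Nat.cast_nonneg n : (0 : ℝ) ≤ n)]
    linarith
  obtain ⟨z, -, φ, hφ, hz⟩ := (isCompact_closedBall x (s + 1)).tendsto_subseq hmem
  have hlim : Tendsto (fun n : ℕ => 1 / ((φ n : ℝ) + 1)) atTop (𝓝 0) :=
    tendsto_one_div_add_atTop_nhds_zero_nat.comp hφ.tendsto_atTop
  have h1 : dist x z ≤ s := by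
    refine le_of_tendsto_of_tendsto (tendsto_const_nhds.dist hz) (b := atTop)
      (g := fun n : ℕ => s + 1 / ((φ n : ℝ) + 1)) ?_ (Eventually.of_forall fun n => hw1 (φ n))
    simpa using tendsto_const_nhds.add hlim
  have h2 : dist z y ≤ t := by
    refine le_of_tendsto_of_tendsto (hz.dist tendsto_const_nhds) (b := atTop)
      (g := fun n : ℕ => t + 1 / ((φ n : ℝ) + 1)) ?_ (Eventually.of_forall fun n => hw2 (φ n))
    simpa using tendsto_const_nhds.add hlim
  have h3 := dist_triangle x z y
  exact ⟨z, by linarith, by linarith⟩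

end proper

section ahlfors

variable [MeasurableSpace X] [BorelSpace X] [SecondCountableTopology X] {d c : ℝ}

/-- Upper Ahlfors bound: `m (ball y s) ≤ (22 s)^d / c`. -/
theorem ball_le_of_BG {m : Measure X} (hm : m = μH[d]) (hd : 0 < d) [IsLocallyFiniteMeasure m]
    [m.IsOpenPosMeasure] (hc : 0 < c) {S : Set X} (hBG : BG m d c S) {y : X} {s : ℝ} (hs : 0 < s)
    (hs2 : s ≤ 1 / 2) (hS : ball y s ⊆ S) :
    m (ball y s) ≤ ENNReal.ofReal ((22 * s) ^ d / c) := by
  subst hm
  have hae := ae_density_le (X := X) hd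
  have hpos : 0 < μH[d] (ball y s) := measure_ball_pos _ y hs
  obtain ⟨p, hp1, hp2⟩ : ∃ p ∈ ball y s, ∀ᶠ r in 𝓝[>] (0 : ℝ),
      μH[d] (closedBall p r) ≤ ENNReal.ofReal ((11 * r) ^ d) := by
    by_contra hcon
    have : μH[d] (ball y s) = 0 := by
      refine measure_mono_null (fun p hp => ?_) hae
      exact fun h => hcon ⟨p, hp, h⟩
    exact hpos.ne' this
  have h1 : ∀ᶠ r in 𝓝[>] (0 : ℝ), 0 < r ∧ r < 2 * s := by
    filter_upwards [self_mem_nhdsWithin,
      nhdsWithin_le_nhds (gt_mem_nhds (show (0 : ℝ) < 2 * s by positivity))] with r h1 h2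
    exact ⟨h1, h2⟩
  obtain ⟨r, hr1, hr2, hr3⟩ := (hp2.and h1).exists
  have h2 := hBG p (hS hp1) (r / (2 * s)) (2 * s) (by positivity)
    (by rw [div_le_one (by positivity)]; exact hr3.le) (by positivity) (by linarith)
  have h3 : r / (2 * s) * (2 * s) = r := by field_simp
  rw [h3] at h2
  have h4 : ENNReal.ofReal (c * (r / (2 * s)) ^ d) * μH[d] (ball y s) ≤
      ENNReal.ofReal ((11 * r) ^ d) := by
    calc ENNReal.ofReal (c * (r / (2 * s)) ^ d) * μH[d] (ball y s)
        ≤ ENNReal.ofReal (c * (r / (2 * s)) ^ d) * μH[d] (ball p (2 * s)) := by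
          gcongr
          refine ball_subset_ball' ?_
          rw [mem_ball, dist_comm] at hp1
          linarith
      _ ≤ μH[d] (ball p r) := h2
      _ ≤ μH[d] (closedBall p r) := measure_mono ball_subset_closedBall
      _ ≤ _ := hr1
  have h5 : (0 : ℝ) < c * (r / (2 * s)) ^ d := by positivity
  have h6 : μH[d] (ball y s) ≤ ENNReal.ofReal ((11 * r) ^ d) / ENNReal.ofReal (c * (r / (2 * s)) ^ d) := by
    rw [ENNReal.le_div_iff_mul_le (Or.inl (by simpa using h5)) (Or.inl ENNReal.ofReal_ne_top),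
      mul_comm]
    exact h4
  refine h6.trans ?_
  rw [← ENNReal.ofReal_div_of_pos h5]
  refine ENNReal.ofReal_le_ofReal (le_of_eq ?_)
  have h7 : (22 * s) ^ d * (r / (2 * s)) ^ d = (11 * r) ^ d := by
    rw [← Real.mul_rpow (by positivity) (by positivity)]
    congr 1
    field_simp
    ring
  rw [← h7]
  field_simp

omit [BorelSpace X] [SecondCountableTopology X] in
/-- Lower Ahlfors bound, given properness. -/
theorem exists_lower_of_BG {m : Measure X} [ProperSpace X] [m.IsOpenPosMeasure] (hc : 0 < c)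
    (x₀ : X) (A : ℝ) (hfin : ∀ r : ℝ, m (ball x₀ r) < ∞) (hBG : BG m d c (ball x₀ A)) :
    ∃ c' : ℝ, 0 < c' ∧ ∀ y ∈ ball x₀ A, ∀ s : ℝ, 0 < s → s ≤ 1 →
      ENNReal.ofReal (c' * s ^ d) ≤ m (ball y s) := by
  -- uniform positivity of the balls of radius one
  obtain ⟨b, hb0, hb⟩ : ∃ b : ℝ, 0 < b ∧ ∀ y ∈ ball x₀ A, ENNReal.ofReal b ≤ m (ball y 1) := by
    have hcomp := isCompact_closedBall x₀ A
    obtain ⟨T, hT, hcov⟩ := Metric.totallyBounded_iff.1 hcomp.totallyBounded (1 / 2) (by norm_num)
    rcases T.eq_empty_or_nonempty with hTe | hTn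
    · refine ⟨1, one_pos, fun y hy => ?_⟩
      have := hcov (ball_subset_closedBall hy)
      rw [hTe] at this
      simp at this
    · lift T to Finset X using hT
      obtain ⟨p, hp, hmin⟩ := T.exists_min_image (fun p => m (ball p (1 / 2))) hTn
      have hp0 : 0 < m (ball p (1 / 2)) := measure_ball_pos m p (by norm_num)
      have hpf : m (ball p (1 / 2)) ≠ ∞ := by
        refine ((measure_mono ?_).trans_lt (hfin (dist p x₀ + 1))).ne
        exact ball_subset_ball' (by linarith)
      refine ⟨(m (ball p (1 / 2))).toReal, ENNReal.toReal_pos hp0.ne' hpf, fun y hy => ?_⟩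
      rw [ENNReal.ofReal_toReal hpf]
      have := hcov (ball_subset_closedBall hy)
      simp only [Finset.mem_coe, Set.mem_iUnion, mem_ball] at this
      obtain ⟨q, hq, hyq⟩ := this
      refine (hmin q hq).trans (measure_mono (ball_subset_ball' ?_))
      rw [dist_comm] at hyq
      linarith
  refine ⟨c * b, by positivity, fun y hy s hs hs1 => ?_⟩
  have h1 := hBG y hy s 1 hs hs1 one_pos le_rfl
  rw [mul_one] at h1
  refine le_trans ?_ h1
  calc ENNReal.ofReal (c * b * s ^ d) = ENNReal.ofReal (c * s ^ d) * ENNReal.ofReal b := by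
        rw [← ENNReal.ofReal_mul (by positivity)]
        congr 1; ring
    _ ≤ _ := by gcongr; exact hb y hy

end ahlfors

end Vale.Agent.P233.H37
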