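import Mathlib.MeasureTheory.Measure.Hausdorff
import Mathlib.MeasureTheory.Covering.Vitali
import Mathlib.MeasureTheory.Measure.Regular
import Mathlib.Tactic

/-!
# Upper density of the Hausdorff measure
-/

open MeasureTheory Filter Topology Metric
open scoped ENNReal NNReal

namespace Vale.Agent.P233.H37

variable {X : Type*} [MetricSpace X] [MeasurableSpace X] [BorelSpace X]

/-- One covering step. -/
theorem hausdorff_le_of_bad [SecondCountableTopology X] {d : ℝ} (hd : 0 < d) {A U : Set X}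
    (hU : IsOpen U) (hAU : A ⊆ U)
    (hbad : ∀ x ∈ A, ∃ᶠ s in 𝓝[>] (0 : ℝ),
      ENNReal.ofReal ((11 * s) ^ d) < μH[d] (closedBall x s)) :
    (μH[d] : Measure X) A ≤ ENNReal.ofReal ((10 / 11 : ℝ) ^ d) * μH[d] U := by
  classical
  -- the index set of good balls
  have key : ∀ δ : ℝ, 0 < δ → ∃ u : Set (X × ℝ), u.Countable ∧
      (∀ b ∈ u, 0 < b.2 ∧ b.2 < δ ∧ closedBall b.1 b.2 ⊆ U ∧
        ENNReal.ofReal ((11 * b.2) ^ d) < μH[d] (closedBall b.1 b.2)) ∧
      (u.PairwiseDisjoint fun b => closedBall b.1 b.2) ∧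
      A ⊆ ⋃ b ∈ u, closedBall b.1 (5 * b.2) := by
    intro δ hδ
    let t : Set (X × ℝ) := {b | 0 < b.2 ∧ b.2 < δ ∧ closedBall b.1 b.2 ⊆ U ∧
        ENNReal.ofReal ((11 * b.2) ^ d) < μH[d] (closedBall b.1 b.2)}
    obtain ⟨u, hut, hdis, hcov⟩ := Vitali.exists_disjoint_subfamily_covering_enlargement_closedBall
      t (fun b => b.1) (fun b => b.2) δ (fun b hb => hb.2.1.le) 5 (by norm_num)
    refine ⟨u, ?_, fun b hb => hut hb, hdis, ?_⟩
    · refine Set.PairwiseDisjoint.countable_of_nonempty_interior hdis fun b hb => ?_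
      have h0 : 0 < b.2 := (hut hb).1
      exact ⟨b.1, ball_subset_interior_closedBall (mem_ball_self h0)⟩
    · intro x hx
      obtain ⟨r, hr, hrU⟩ := Metric.isOpen_iff.1 hU x (hAU hx)
      have h1 : ∀ᶠ s in 𝓝[>] (0 : ℝ), 0 < s ∧ s < δ ∧ s < r := by
        filter_upwards [self_mem_nhdsWithin, nhdsWithin_le_nhds (gt_mem_nhds hδ),
          nhdsWithin_le_nhds (gt_mem_nhds hr)] with s h1 h2 h3
        exact ⟨h1, h2, h3⟩
      obtain ⟨s, hs1, hs2, hs3, hs4⟩ := ((hbad x hx).and_eventually h1).exists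
      have hxt : (x, s) ∈ t := ⟨hs2, hs3, (closedBall_subset_ball hs4).trans hrU, hs1⟩
      obtain ⟨b, hb, hsub⟩ := hcov _ hxt
      exact Set.mem_biUnion hb (hsub (mem_closedBall_self hs2.le))
  choose u hucount hu hdis hcov using fun n : ℕ =>
    key (1 / ((n : ℝ) + 1)) (by positivity)
  have hc : ∀ n, Countable (u n) := fun n => (hucount n).to_subtype
  refine (Measure.hausdorffMeasure_le_liminf_tsum (X := X) d A (l := atTop)
    (fun n : ℕ => ENNReal.ofReal (10 * (1 / ((n : ℝ) + 1)))) ?_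
    (fun n (b : u n) => closedBall b.1.1 (5 * b.1.2)) ?_ ?_).trans ?_
  · have h1 : Tendsto (fun n : ℕ => 10 * (1 / ((n : ℝ) + 1))) atTop (𝓝 (10 * 0)) :=
      tendsto_one_div_add_atTop_nhds_zero_nat.const_mul 10
    rw [mul_zero] at h1
    simpa using ENNReal.tendsto_ofReal h1
  · refine Eventually.of_forall fun n b => ?_
    have hb := hu n b.1 b.2
    rw [← Metric.closedEBall_ofReal (by linarith [hb.1])]
    refine Metric.ediam_closedEBall_le.trans ?_
    rw [show (2 : ℝ≥0∞) = ENNReal.ofReal 2 by simp, ← ENNReal.ofReal_mul (by norm_num)]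
    exact ENNReal.ofReal_le_ofReal (by linarith [hb.2.1])
  · refine Eventually.of_forall fun n => ?_
    rw [← Set.biUnion_eq_iUnion (u n) (fun b _ => closedBall b.1 (5 * b.2))]
    exact hcov n
  · refine liminf_le_of_le (by isBoundedDefault) fun c hc' => ?_
    obtain ⟨n, hn⟩ := hc'.exists
    refine hn.trans ?_
    calc ∑' b : u n, ediam (closedBall b.1.1 (5 * b.1.2)) ^ d
        ≤ ∑' b : u n, ENNReal.ofReal ((10 / 11 : ℝ) ^ d) * μH[d] (closedBall b.1.1 b.1.2) := by
          refine ENNReal.tsum_le_tsum fun b => ?_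
          have hb := hu n b.1 b.2
          have h1 : ediam (closedBall b.1.1 (5 * b.1.2)) ≤ ENNReal.ofReal (10 * b.1.2) := by
            rw [← Metric.closedEBall_ofReal (by linarith [hb.1])]
            refine Metric.ediam_closedEBall_le.trans ?_
            rw [show (2 : ℝ≥0∞) = ENNReal.ofReal 2 by simp, ← ENNReal.ofReal_mul (by norm_num)]
            exact ENNReal.ofReal_le_ofReal (by linarith)
          calc ediam (closedBall b.1.1 (5 * b.1.2)) ^ d
              ≤ ENNReal.ofReal (10 * b.1.2) ^ d := ENNReal.rpow_le_rpow h1 hd.le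
            _ = ENNReal.ofReal ((10 * b.1.2) ^ d) :=
                ENNReal.ofReal_rpow_of_nonneg (by linarith [hb.1]) hd.le
            _ = ENNReal.ofReal ((10 / 11 : ℝ) ^ d * (11 * b.1.2) ^ d) := by
                rw [← Real.mul_rpow (by norm_num) (by linarith [hb.1])]
                congr 2; ring
            _ = ENNReal.ofReal ((10 / 11 : ℝ) ^ d) * ENNReal.ofReal ((11 * b.1.2) ^ d) :=
                ENNReal.ofReal_mul (by positivity)
            _ ≤ _ := by gcongr; exact hb.2.2.2.le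
      _ = ENNReal.ofReal ((10 / 11 : ℝ) ^ d) * ∑' b : u n, μH[d] (closedBall b.1.1 b.1.2) :=
          ENNReal.tsum_mul_left
      _ = ENNReal.ofReal ((10 / 11 : ℝ) ^ d) * μH[d] (⋃ b : u n, closedBall b.1.1 b.1.2) := by
          rw [measure_iUnion]
          · intro a b hab
            exact hdis n a.2 b.2 (fun h => hab (Subtype.ext h))
          · exact fun b => isClosed_closedBall.measurableSet
      _ ≤ _ := by
          gcongr
          exact Set.iUnion_subset fun b => (hu n b.1 b.2).2.2.1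

/-- The upper density of a locally finite Hausdorff measure is bounded almost everywhere. -/
theorem ae_density_le [SecondCountableTopology X] {d : ℝ} (hd : 0 < d)
    [IsLocallyFiniteMeasure (μH[d] : Measure X)] :
    ∀ᵐ x ∂(μH[d] : Measure X), ∀ᶠ s in 𝓝[>] (0 : ℝ),
      μH[d] (closedBall x s) ≤ ENNReal.ofReal ((11 * s) ^ d) := by
  have hfin : ∀ x : X, ∃ U : Set X, x ∈ U ∧ IsOpen U ∧ μH[d] U < ∞ := fun x =>
    Measure.exists_isOpen_measure_lt_top _ x
  choose U hxU hU hUf using hfin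
  obtain ⟨T, hT, hcov⟩ := TopologicalSpace.countable_cover_nhds
    (fun x => (hU x).mem_nhds (hxU x))
  set B : Set X := {x | ¬ ∀ᶠ s in 𝓝[>] (0 : ℝ),
      μH[d] (closedBall x s) ≤ ENNReal.ofReal ((11 * s) ^ d)} with hB
  have hone : ENNReal.ofReal ((10 / 11 : ℝ) ^ d) < 1 := by
    rw [← ENNReal.ofReal_one]
    exact (ENNReal.ofReal_lt_ofReal_iff one_pos).2
      (Real.rpow_lt_one (by norm_num) (by norm_num) hd)
  have hpiece : ∀ x ∈ T, μH[d] (B ∩ U x) = 0 := by
    intro x _
    have hlt : μH[d] (B ∩ U x) < ∞ := (measure_mono Set.inter_subset_right).trans_lt (hUf x)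
    by_contra hne
    have hle : ∀ V, IsOpen V → B ∩ U x ⊆ V →
        μH[d] (B ∩ U x) ≤ ENNReal.ofReal ((10 / 11 : ℝ) ^ d) * μH[d] V := by
      intro V hV hsub
      refine hausdorff_le_of_bad hd hV hsub fun y hy => ?_
      have := hy.1
      rw [hB, Set.mem_ofPred_eq, not_eventually] at this
      exact this.mono fun s hs => not_le.1 hs
    set q := ENNReal.ofReal ((10 / 11 : ℝ) ^ d) with hq
    have hq0 : q ≠ 0 := by
      rw [hq, Ne, ENNReal.ofReal_eq_zero, not_le]; positivity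
    have h2 : μH[d] (B ∩ U x) < q⁻¹ * μH[d] (B ∩ U x) := by
      have h3 : 1 < q⁻¹ := ENNReal.one_lt_inv.2 hone
      calc μH[d] (B ∩ U x) = 1 * μH[d] (B ∩ U x) := (one_mul _).symm
        _ < _ := ENNReal.mul_lt_mul_left hne hlt.ne h3
    obtain ⟨V, hV1, hV2, hV3⟩ := Set.exists_isOpen_lt_of_lt (B ∩ U x) _ h2
    have h4 := hle V hV2 hV1
    have h5 : q * μH[d] V < μH[d] (B ∩ U x) := by
      calc q * μH[d] V < q * (q⁻¹ * μH[d] (B ∩ U x)) :=
            ENNReal.mul_lt_mul_right hq0 ENNReal.ofReal_ne_top hV3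
        _ = μH[d] (B ∩ U x) := by
            rw [← mul_assoc, ENNReal.mul_inv_cancel hq0 ENNReal.ofReal_ne_top, one_mul]
    exact absurd h4 (not_le.2 h5)
  have hBsub : B ⊆ ⋃ x ∈ T, (B ∩ U x) := by
    intro y hy
    have : y ∈ ⋃ x ∈ T, U x := by rw [hcov]; trivial
    simp only [Set.mem_iUnion] at this ⊢
    obtain ⟨x, hx, hyx⟩ := this
    exact ⟨x, hx, hy, hyx⟩
  have : μH[d] B = 0 := measure_mono_null hBsub ((measure_biUnion_null_iff hT).2 hpiece)
  exact this

end Vale.Agent.P233.H37
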