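import Vale.Agent.P233.H37.Ahlfors
import Vale.Agent.P233.H992.TwoSided
import Mathlib.MeasureTheory.Covering.Differentiation
import Mathlib.MeasureTheory.Integral.Average

/-!
# Lebesgue differentiation for measures that are locally doubling with constants
depending on the point
-/

open MeasureTheory Filter Topology Metric Set
open scoped ENNReal NNReal

namespace Vale.Agent.P233.H37

variable {X : Type*} [MetricSpace X] [MeasurableSpace X] [BorelSpace X]

/-- Bishop-Gromov at every point, the constant may depend on the point. -/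
def BGp (m : Measure X) (d : ℝ) : Prop := ∀ x, ∃ c : ℝ, 0 < c ∧ BG m d c {x}

omit [BorelSpace X] in
theorem BGp_of_BG {m : Measure X} {d : ℝ}
    (h : ∀ x, ∃ c : ℝ, 0 < c ∧ ∃ S : Set X, x ∈ S ∧ BG m d c S) : BGp m d := by
  intro x
  obtain ⟨c, hc, S, hxS, hS⟩ := h x
  exact ⟨c, hc, fun p hp => hS p (by rw [mem_singleton_iff.1 hp]; exact hxS)⟩

/-- the uniform constant of doubling along good scales -/
noncomputable def C0 (d : ℝ) : ℝ≥0 := 2 * (3 : ℝ≥0) ^ d

/-- Locally doubling: a uniform constant along good scales, a constant depending on the point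
along all small scales. -/
def LocDbl (m : Measure X) : Prop :=
  (∃ C : ℝ≥0, ∀ x, ∃ᶠ r in 𝓝[>] (0 : ℝ), m (closedBall x (3 * r)) ≤ C * m (closedBall x r)) ∧
  ∀ x, ∃ J : ℕ, ∀ᶠ r in 𝓝[>] (0 : ℝ), m (closedBall x (3 * r)) ≤ (J : ℝ≥0∞) * m (closedBall x r)

omit [BorelSpace X] in
theorem frequently_doubling {m : Measure X} [IsLocallyFiniteMeasure m] {d : ℝ} {x : X}
    (hlow : ∃ κ : ℝ, 0 < κ ∧ ∀ᶠ r in 𝓝[>] (0 : ℝ), ENNReal.ofReal (κ * r ^ d) ≤
      m (closedBall x r)) :
    ∃ᶠ r in 𝓝[>] (0 : ℝ), m (closedBall x (3 * r)) ≤ C0 d * m (closedBall x r) := by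
  intro hcon
  obtain ⟨κ, hκ, hlow⟩ := hlow
  have hfin : ∃ ε > 0, m (closedBall x ε) < ∞ := by
    obtain ⟨ε, hε, h⟩ := (m.finiteAt_nhds x).exists_mem_basis nhds_basis_closedBall
    exact ⟨ε, hε, h⟩
  obtain ⟨ε₁, hε₁, hfin⟩ := hfin
  obtain ⟨ε₂, hε₂, hcon⟩ := (mem_nhdsGT_iff_exists_Ioo_subset.1 (hlow.and hcon))
  have hε₂ : (0 : ℝ) < ε₂ := hε₂
  set r₀ : ℝ := min (min ε₁ (ε₂ / 2)) 1 with hr₀
  have hr₀p : 0 < r₀ := by positivity
  have hr₀ε : r₀ < ε₂ := by
    have : r₀ ≤ ε₂ / 2 := (min_le_left _ _).trans (min_le_right _ _)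
    linarith
  have hr₀f : m (closedBall x r₀) < ∞ :=
    (measure_mono (closedBall_subset_closedBall ((min_le_left _ _).trans (min_le_left _ _)))).trans_lt
      hfin
  set a : ℕ → ℝ≥0∞ := fun k => m (closedBall x (r₀ / 3 ^ k)) with ha
  have hmemI : ∀ k : ℕ, r₀ / 3 ^ k ∈ Ioo (0 : ℝ) ε₂ := by
    intro k
    refine ⟨by positivity, lt_of_le_of_lt ?_ hr₀ε⟩
    exact div_le_self hr₀p.le (one_le_pow₀ (by norm_num))
  have hstep : ∀ k, (C0 d : ℝ≥0∞) * a (k + 1) ≤ a k := by
    intro k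
    have := (hcon (hmemI (k + 1))).2
    simp only [not_le] at this
    have h3 : 3 * (r₀ / 3 ^ (k + 1)) = r₀ / 3 ^ k := by
      rw [pow_succ]; field_simp
    rw [h3] at this
    exact this.le
  have hind : ∀ k, (C0 d : ℝ≥0∞) ^ k * a k ≤ a 0 := by
    intro k
    induction k with
    | zero => simp
    | succ k ih =>
      calc (C0 d : ℝ≥0∞) ^ (k + 1) * a (k + 1) = (C0 d : ℝ≥0∞) ^ k * ((C0 d : ℝ≥0∞) * a (k + 1)) := by
            rw [pow_succ, mul_assoc]
        _ ≤ (C0 d : ℝ≥0∞) ^ k * a k := by gcongr; exact hstep k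
        _ ≤ a 0 := ih
  have hkey : ∀ k : ℕ, ENNReal.ofReal (2 ^ k * (κ * r₀ ^ d)) ≤ m (closedBall x r₀) := by
    intro k
    have h0 : a 0 = m (closedBall x r₀) := by simp [ha]
    rw [← h0]
    have hC : (C0 d : ℝ≥0∞) = ENNReal.ofReal (2 * 3 ^ d) := by
      rw [C0, ENNReal.ofReal, ENNReal.coe_inj]
      rw [Real.toNNReal_mul (by norm_num), Real.toNNReal_rpow_of_nonneg (by norm_num)]
      simp
    refine le_trans (le_of_eq ?_) ((mul_le_mul_right (hcon (hmemI k)).1 _).trans (hind k))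
    rw [hC, ← ENNReal.ofReal_pow (by positivity), ← ENNReal.ofReal_mul (by positivity)]
    congr 1
    rw [mul_pow, Real.div_rpow hr₀p.le (by positivity)]
    have h33 : (((3 : ℝ) ^ k) ^ d) = ((3 : ℝ) ^ d) ^ k := by
      rw [← Real.rpow_natCast, ← Real.rpow_natCast, ← Real.rpow_mul (by norm_num),
        ← Real.rpow_mul (by norm_num), mul_comm]
    rw [h33]
    have : (0 : ℝ) < ((3 : ℝ) ^ d) ^ k := by positivity
    field_simp
  have hreal : ∀ k : ℕ, 2 ^ k * (κ * r₀ ^ d) ≤ m.real (closedBall x r₀) := by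
    intro k
    have := ENNReal.toReal_mono hr₀f.ne (hkey k)
    rwa [ENNReal.toReal_ofReal (by positivity)] at this
  obtain ⟨k, hk⟩ := pow_unbounded_of_one_lt (m.real (closedBall x r₀) / (κ * r₀ ^ d))
    (one_lt_two)
  rw [div_lt_iff₀ (by positivity)] at hk
  exact absurd (hreal k) (not_le.2 hk)

omit [BorelSpace X] in
theorem eventually_doubling {m : Measure X} {d : ℝ} (h : BGp m d) (x : X) :
    ∃ J : ℕ, ∀ᶠ r in 𝓝[>] (0 : ℝ), m (closedBall x (3 * r)) ≤ (J : ℝ≥0∞) * m (closedBall x r) := by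
  obtain ⟨c, hc, hBG⟩ := h x
  obtain ⟨J, hJ⟩ := exists_nat_ge (1 / (c * (1 / 6) ^ d))
  refine ⟨J, ?_⟩
  have : Ioo (0 : ℝ) (1 / 6) ∈ 𝓝[>] (0 : ℝ) := Ioo_mem_nhdsGT (by norm_num)
  filter_upwards [this] with r hr
  have h1 := hBG x rfl (1 / 6) (6 * r) (by norm_num) (by norm_num) (by linarith [hr.1])
    (by linarith [hr.2])
  have h2 : (1 / 6 : ℝ) * (6 * r) = r := by ring
  rw [h2] at h1
  have hpos : 0 < c * (1 / 6 : ℝ) ^ d := by positivity
  calc m (closedBall x (3 * r)) ≤ m (ball x (6 * r)) :=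
        measure_mono (closedBall_subset_ball (by linarith [hr.1]))
    _ = ENNReal.ofReal (1 / (c * (1 / 6) ^ d)) *
          (ENNReal.ofReal (c * (1 / 6) ^ d) * m (ball x (6 * r))) := by
        rw [← mul_assoc, ← ENNReal.ofReal_mul (by positivity), one_div,
          inv_mul_cancel₀ hpos.ne', ENNReal.ofReal_one, one_mul]
    _ ≤ (J : ℝ≥0∞) * m (ball x r) := by
        refine mul_le_mul' ?_ h1
        rw [← ENNReal.ofReal_natCast]
        exact ENNReal.ofReal_le_ofReal hJ
    _ ≤ _ := by gcongr; exact ball_subset_closedBall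

omit [BorelSpace X] in
theorem BGp.locDbl {m : Measure X} [IsLocallyFiniteMeasure m] [m.IsOpenPosMeasure] {d : ℝ}
    (h : BGp m d) : LocDbl m := by
  refine ⟨⟨C0 d, fun x => frequently_doubling ?_⟩, fun x => eventually_doubling h x⟩
  obtain ⟨c, hc, hBG⟩ := h x
  obtain ⟨ε, hε, hfin⟩ := (m.finiteAt_nhds x).exists_mem_basis nhds_basis_closedBall
  set R : ℝ := min ε 1 with hR
  have hRp : 0 < R := by positivity
  have hbf : m (ball x R) < ∞ := (measure_mono
    (ball_subset_closedBall.trans (closedBall_subset_closedBall (min_le_left _ _)))).trans_lt hfin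
  have hposr : 0 < m.real (ball x R) :=
    ENNReal.toReal_pos (measure_ball_pos m x hRp).ne' hbf.ne
  refine ⟨c / R ^ d * m.real (ball x R), by positivity, ?_⟩
  filter_upwards [Ioo_mem_nhdsGT hRp] with r hr
  have h1 := hBG x rfl (r / R) R (div_pos hr.1 hRp) ((div_le_one hRp).2 hr.2.le) hRp
    (min_le_right _ _)
  rw [div_mul_cancel₀ _ hRp.ne'] at h1
  refine le_trans (le_of_eq ?_) (h1.trans (measure_mono ball_subset_closedBall))
  rw [← ENNReal.ofReal_toReal hbf.ne, ← ENNReal.ofReal_mul (by have := hr.1; positivity),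
    Real.div_rpow hr.1.le hRp.le]
  congr 1
  rw [Measure.real]
  ring

omit [BorelSpace X] in
theorem locDbl_of_twoSided {m : Measure X} [IsLocallyFiniteMeasure m] {n : ℕ}
    (h : H992.TwoSided m n) : LocDbl m := by
  refine ⟨⟨C0 n, fun x => frequently_doubling ?_⟩, fun x => ?_⟩
  · obtain ⟨c, hc, C, hC, h⟩ := h x 1
    refine ⟨c, hc, ?_⟩
    filter_upwards [Ioo_mem_nhdsGT (one_pos (α := ℝ))] with r hr
    have := h x (mem_closedBall_self zero_le_one) r hr.1 hr.2.le
    rw [Real.rpow_natCast]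
    exact this.1.trans this.2.1
  · obtain ⟨c, hc, C, hC, h⟩ := h x 1
    obtain ⟨J, hJ⟩ := exists_nat_ge (C * 3 ^ n / c)
    refine ⟨J, ?_⟩
    filter_upwards [Ioo_mem_nhdsGT (show (0 : ℝ) < 1 / 3 by norm_num)] with r hr
    have h1 := h x (mem_closedBall_self zero_le_one) (3 * r) (by linarith [hr.1])
      (by linarith [hr.2])
    have h2 := h x (mem_closedBall_self zero_le_one) r hr.1 (by linarith [hr.2])
    have hr1 := hr.1
    calc m (closedBall x (3 * r)) ≤ ENNReal.ofReal (C * (3 * r) ^ n) := h1.2.2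
      _ = ENNReal.ofReal (C * 3 ^ n / c) * ENNReal.ofReal (c * r ^ n) := by
          rw [← ENNReal.ofReal_mul (by positivity)]
          congr 1
          rw [mul_pow]; field_simp
      _ ≤ (J : ℝ≥0∞) * m (closedBall x r) := by
          refine mul_le_mul' ?_ (h2.1.trans h2.2.1)
          rw [← ENNReal.ofReal_natCast]
          exact ENNReal.ofReal_le_ofReal hJ

/-- Everything that holds along every Vitali family holds along the closed balls. -/
theorem ae_tendsto_closedBall [SecondCountableTopology X] {m : Measure X}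
    [IsLocallyFiniteMeasure m] (hB : LocDbl m)
    {Y : Type*} (F : Set X → X → Y) (g : X → Filter Y)
    (h : ∀ v : VitaliFamily m, ∀ᵐ x ∂m, Tendsto (fun a => F a x) (v.filterAt x) (g x)) :
    ∀ᵐ x ∂m, Tendsto (fun r => F (closedBall x r) x) (𝓝[>] (0 : ℝ)) (g x) := by
  obtain ⟨⟨C, hf⟩, he⟩ := hB
  have hC : ∀ J : ℕ, ∀ x : X, ∃ᶠ r in 𝓝[>] (0 : ℝ), m (closedBall x (3 * r)) ≤
      ((C + J : ℝ≥0) : ℝ≥0∞) * m (closedBall x r) := by
    intro J x
    refine (hf x).mono fun r hr => hr.trans ?_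
    gcongr
    exact le_self_add
  have hall := ae_all_iff.2 fun J : ℕ => h (Vitali.vitaliFamily m (C + J) (hC J))
  filter_upwards [hall] with x hx
  obtain ⟨J, hJ⟩ := he x
  refine (hx J).comp ?_
  rw [VitaliFamily.tendsto_filterAt_iff]
  refine ⟨?_, ?_⟩
  · filter_upwards [hJ, self_mem_nhdsWithin] with r hr hr0
    have hr0 : (0 : ℝ) < r := hr0
    refine ⟨isClosed_closedBall, ?_, r, Subset.rfl, hr.trans ?_⟩
    · exact (nonempty_ball.2 hr0).mono ball_subset_interior_closedBall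
    · gcongr
      rw [ENNReal.coe_add, ENNReal.coe_natCast]
      exact le_add_self
  · intro ε hε
    have : Ioo (0 : ℝ) ε ∈ 𝓝[>] (0 : ℝ) := Ioo_mem_nhdsGT hε
    filter_upwards [this] with r hr
    exact closedBall_subset_closedBall hr.2.le

section conclusions

variable [SecondCountableTopology X] {m : Measure X} [IsLocallyFiniteMeasure m]

/-- Lebesgue differentiation, closed balls. -/
theorem ae_tendsto_setAverage (hB : LocDbl m) {f : X → ℝ} (hf : LocallyIntegrable f m) :
    ∀ᵐ x ∂m, Tendsto (fun r => ⨍ y in closedBall x r, f y ∂m) (𝓝[>] (0 : ℝ)) (𝓝 (f x)) :=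
  ae_tendsto_closedBall hB (fun a _ => ⨍ y in a, f y ∂m) (fun x => 𝓝 (f x))
    fun v => v.ae_tendsto_average hf

/-- Lebesgue points, closed balls. -/
theorem ae_tendsto_setAverage_abs_sub (hB : LocDbl m) {f : X → ℝ} (hf : LocallyIntegrable f m) :
    ∀ᵐ x ∂m, Tendsto (fun r => ⨍ y in closedBall x r, |f y - f x| ∂m) (𝓝[>] (0 : ℝ)) (𝓝 0) :=
  ae_tendsto_closedBall hB (fun a x => ⨍ y in a, |f y - f x| ∂m) (fun _ => 𝓝 0)
    fun v => by simpa only [Real.norm_eq_abs] using v.ae_tendsto_average_norm_sub hf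

/-- Density points, closed balls. -/
theorem ae_tendsto_density (hB : LocDbl m) {A : Set X} (hA : MeasurableSet A) :
    ∀ᵐ x ∂m, x ∈ A →
      Tendsto (fun r => m (A ∩ closedBall x r) / m (closedBall x r)) (𝓝[>] (0 : ℝ)) (𝓝 1) := by
  have := ae_tendsto_closedBall hB (fun a _ => m (A ∩ a) / m a) (fun x => 𝓝 (A.indicator 1 x))
    fun v => v.ae_tendsto_measure_inter_div_of_measurableSet hA
  filter_upwards [this] with x hx hxA
  rwa [indicator_of_mem hxA, Pi.one_apply] at hx

theorem eventually_integrableOn_closedBall {f : X → ℝ} (hf : LocallyIntegrable f m) (x : X) :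
    ∀ᶠ r in 𝓝[>] (0 : ℝ), IntegrableOn f (closedBall x r) m := by
  obtain ⟨s, hs, hfs⟩ := hf x
  obtain ⟨ε, hε, hsub⟩ := Metric.nhds_basis_closedBall.mem_iff.1 hs
  filter_upwards [Ioo_mem_nhdsGT hε] with r hr
  exact hfs.mono_set ((closedBall_subset_closedBall hr.2.le).trans hsub)

theorem eventually_measure_closedBall_lt_top (x : X) :
    ∀ᶠ r in 𝓝[>] (0 : ℝ), m (closedBall x r) < ∞ := by
  obtain ⟨ε, hε, h⟩ := (m.finiteAt_nhds x).exists_mem_basis nhds_basis_closedBall
  filter_upwards [Ioo_mem_nhdsGT hε] with r hr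
  exact (measure_mono (closedBall_subset_closedBall hr.2.le)).trans_lt h

/-- `L^q` Lebesgue points, closed balls. -/
theorem ae_tendsto_setAverage_rpow [m.IsOpenPosMeasure] (hB : LocDbl m) {f : X → ℝ} {q : ℝ} (hq : 1 ≤ q)
    (hfm : AEStronglyMeasurable f m)
    (hf : LocallyIntegrable (fun x => |f x| ^ q) m) :
    ∀ᵐ x ∂m, Tendsto (fun r => ⨍ y in closedBall x r, |f y - f x| ^ q ∂m) (𝓝[>] (0 : ℝ))
      (𝓝 0) := by
  have hq0 : 0 < q := lt_of_lt_of_le one_pos hq
  -- elementary inequality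
  have hel : ∀ a b : ℝ, |a - b| ^ q ≤ 2 ^ q * (|a| ^ q + |b| ^ q) := by
    intro a b
    have h1 : |a - b| ≤ 2 * max |a| |b| := by
      have := abs_sub a b
      have h2 := le_max_left |a| |b|
      have h3 := le_max_right |a| |b|
      linarith
    calc |a - b| ^ q ≤ (2 * max |a| |b|) ^ q := Real.rpow_le_rpow (abs_nonneg _) h1 hq0.le
      _ = 2 ^ q * (max |a| |b|) ^ q := Real.mul_rpow (by norm_num) (by positivity)
      _ ≤ 2 ^ q * (|a| ^ q + |b| ^ q) := by
          gcongr
          rcases le_total |a| |b| with h | h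
          · rw [max_eq_right h]
            have : 0 ≤ |a| ^ q := by positivity
            linarith
          · rw [max_eq_left h]
            have : 0 ≤ |b| ^ q := by positivity
            linarith
  have hloc : ∀ c : ℝ, LocallyIntegrable (fun y => |f y - c| ^ q) m := by
    intro c
    have hmaj : LocallyIntegrable (fun y => 2 ^ q * (|f y| ^ q + |c| ^ q)) m :=
      (hf.add (locallyIntegrable_const _)).smul (2 ^ q : ℝ)
    refine hmaj.mono ?_ (Eventually.of_forall fun y => ?_)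
    · exact ((continuous_abs.comp_aestronglyMeasurable (hfm.sub aestronglyMeasurable_const)).aemeasurable.pow_const
        _).aestronglyMeasurable
    · rw [Real.norm_of_nonneg (by positivity), Real.norm_of_nonneg (by positivity)]
      exact hel _ _
  have hall := ae_all_iff.2 fun c : ℚ => ae_tendsto_setAverage hB (hloc (c : ℝ))
  filter_upwards [hall] with x hx
  rw [Metric.tendsto_nhds]
  intro ε hε
  -- choose a rational close to f x
  obtain ⟨η, hη, hη2⟩ : ∃ η > 0, 2 ^ q * (2 * η ^ q) + 2 ^ q * η < ε ∧ True := by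
    have hcont : Tendsto (fun η : ℝ => 2 ^ q * (2 * η ^ q) + 2 ^ q * η) (𝓝[>] 0) (𝓝 0) := by
      have : Tendsto (fun η : ℝ => 2 ^ q * (2 * η ^ q) + 2 ^ q * η) (𝓝 0)
          (𝓝 (2 ^ q * (2 * (0 : ℝ) ^ q) + 2 ^ q * 0)) := by
        have h1 : ContinuousAt (fun η : ℝ => η ^ q) 0 :=
          Real.continuousAt_rpow_const _ _ (Or.inr hq0.le)
        exact (((h1.tendsto.const_mul 2).const_mul _).add (tendsto_id.const_mul _))
      simp only [Real.zero_rpow hq0.ne', mul_zero, add_zero] at this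
      exact this.mono_left nhdsWithin_le_nhds
    obtain ⟨η, h1, h2⟩ := ((hcont.eventually (gt_mem_nhds hε)).and self_mem_nhdsWithin).exists
    exact ⟨η, h2, h1, trivial⟩
  obtain ⟨c, hc1, hc2⟩ := exists_rat_btwn (show f x - η < f x by linarith)
  have hcx : |f x - c| < η := by rw [abs_lt]; constructor <;> linarith
  have hcq : |f x - c| ^ q ≤ η ^ q := Real.rpow_le_rpow (abs_nonneg _) hcx.le hq0.le
  have hev := (hx c).eventually (gt_mem_nhds (show |f x - c| ^ q < η ^ q + η by linarith))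
  filter_upwards [hev, eventually_integrableOn_closedBall (hloc c) x,
    eventually_integrableOn_closedBall (hloc (f x)) x,
    eventually_measure_closedBall_lt_top (m := m) x, self_mem_nhdsWithin] with r h1 h2 h3 h4 h5
  have h5 : (0 : ℝ) < r := h5
  have hpos : m (closedBall x r) ≠ 0 :=
    ((measure_ball_pos m x h5).trans_le (measure_mono ball_subset_closedBall)).ne'
  have hnn : 0 ≤ ⨍ y in closedBall x r, |f y - f x| ^ q ∂m := by
    rw [setAverage_eq, smul_eq_mul]
    exact mul_nonneg (by positivity) (integral_nonneg fun y => by positivity)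
  rw [Real.dist_eq, sub_zero, abs_of_nonneg hnn]
  have hle : ⨍ y in closedBall x r, |f y - f x| ^ q ∂m ≤
      2 ^ q * ((⨍ y in closedBall x r, |f y - c| ^ q ∂m) + |f x - c| ^ q) := by
    have hconst : ⨍ y in closedBall x r, |f x - c| ^ q ∂m = |f x - c| ^ q :=
      setAverage_const hpos h4.ne _
    have hci : IntegrableOn (fun _ : X => |f x - c| ^ q) (closedBall x r) m :=
      integrableOn_const h4.ne
    rw [← hconst, setAverage_eq, setAverage_eq, setAverage_eq, smul_eq_mul, smul_eq_mul,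
      smul_eq_mul, ← mul_add, ← integral_add h2 hci,
      mul_left_comm, ← integral_const_mul ((2 : ℝ) ^ q)]
    refine mul_le_mul_of_nonneg_left ?_ (inv_nonneg.2 measureReal_nonneg)
    refine integral_mono h3 ((h2.add hci).const_mul _) fun y => ?_
    have := hel (f y - c) (f x - c)
    have h6 : f y - c - (f x - c) = f y - f x := by ring
    rw [h6] at this
    exact this
  calc ⨍ y in closedBall x r, |f y - f x| ^ q ∂m ≤ _ := hle
    _ ≤ 2 ^ q * ((η ^ q + η) + η ^ q) := by gcongr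
    _ = 2 ^ q * (2 * η ^ q) + 2 ^ q * η := by ring
    _ < ε := hη2.1

omit [BorelSpace X] [SecondCountableTopology X] in
theorem isLocallyFiniteMeasure_of_twoSided {m : Measure X} {n : ℕ} (h : H992.TwoSided m n) :
    IsLocallyFiniteMeasure m := by
  refine ⟨fun x => ?_⟩
  obtain ⟨c, hc, C, hC, h⟩ := h x 1
  have h1 := h x (mem_closedBall_self zero_le_one) 1 one_pos le_rfl
  exact ⟨ball x 1, ball_mem_nhds x one_pos,
    (h1.2.1.trans h1.2.2).trans_lt ENNReal.ofReal_lt_top⟩

omit [BorelSpace X] [SecondCountableTopology X] in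
theorem isOpenPosMeasure_of_twoSided {m : Measure X} {n : ℕ} (h : H992.TwoSided m n) :
    m.IsOpenPosMeasure := by
  refine ⟨fun U hU ⟨x, hx⟩ h0 => ?_⟩
  obtain ⟨ε, hε, hsub⟩ := Metric.isOpen_iff.1 hU x hx
  obtain ⟨c, hc, C, hC, h⟩ := h x 1
  have h1 := h x (mem_closedBall_self zero_le_one) (min ε 1) (by positivity) (min_le_right _ _)
  have h2 : m (ball x (min ε 1)) = 0 :=
    measure_mono_null ((ball_subset_ball (min_le_left _ _)).trans hsub) h0
  rw [h2] at h1
  have h3 : 0 < ENNReal.ofReal (c * (min ε 1) ^ n) := ENNReal.ofReal_pos.2 (by positivity)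
  exact absurd h1.1 (not_le.2 h3)

end conclusions

/-- **Lebesgue points for an Ahlfors regular measure**, normalised by `s ^ n`; the form used in
`lip_of_lebesgue`. -/
theorem ae_lebesgue_twoSided [SecondCountableTopology X] {m : Measure X} {n : ℕ}
    (h : H992.TwoSided m n) {ι : Type*} [Countable ι] {Q : ι → X → ℝ}
    (hQ : ∀ i, LocallyIntegrable (Q i) m) :
    ∀ᵐ y ∂m, ∀ i, ∀ ε > 0, ∀ᶠ s in 𝓝[>] (0 : ℝ),
      ∫ x in closedBall y s, |Q i x - Q i y| ∂m ≤ ε * s ^ n := by
  haveI := isLocallyFiniteMeasure_of_twoSided h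
  haveI := isOpenPosMeasure_of_twoSided h
  have hall := ae_all_iff.2 fun i => ae_tendsto_setAverage_abs_sub (locDbl_of_twoSided h) (hQ i)
  filter_upwards [hall] with y hy i ε hε
  obtain ⟨c, hc, C, hC, h⟩ := h y 1
  have hev := (hy i).eventually (gt_mem_nhds (show (0 : ℝ) < ε / C by positivity))
  filter_upwards [hev, Ioo_mem_nhdsGT (one_pos (α := ℝ))] with s hs hs1
  have hs0 := hs1.1
  have h1 := h y (mem_closedBall_self zero_le_one) s hs1.1 hs1.2.le
  have hlt : m (closedBall y s) < ∞ := h1.2.2.trans_lt ENNReal.ofReal_lt_top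
  have hpos : 0 < m (closedBall y s) :=
    (measure_ball_pos m y hs1.1).trans_le (measure_mono ball_subset_closedBall)
  have hposr : 0 < m.real (closedBall y s) := ENNReal.toReal_pos hpos.ne' hlt.ne
  have hup : m.real (closedBall y s) ≤ C * s ^ n := by
    have := ENNReal.toReal_mono ENNReal.ofReal_ne_top h1.2.2
    rwa [ENNReal.toReal_ofReal (by positivity)] at this
  rw [setAverage_eq, smul_eq_mul, inv_mul_lt_iff₀ hposr] at hs
  calc ∫ x in closedBall y s, |Q i x - Q i y| ∂m ≤ m.real (closedBall y s) * (ε / C) := hs.le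
    _ ≤ C * s ^ n * (ε / C) := by gcongr
    _ = ε * s ^ n := by field_simp

/-- The `L^q` version. -/
theorem ae_lebesgue_rpow_twoSided [SecondCountableTopology X] {m : Measure X} {n : ℕ}
    (h : H992.TwoSided m n) {ι : Type*} [Countable ι] {Q : ι → X → ℝ} {q : ℝ} (hq : 1 ≤ q)
    (hQm : ∀ i, AEStronglyMeasurable (Q i) m)
    (hQ : ∀ i, LocallyIntegrable (fun x => |Q i x| ^ q) m) :
    ∀ᵐ y ∂m, ∀ i, ∀ ε > 0, ∀ᶠ s in 𝓝[>] (0 : ℝ),
      ∫ x in closedBall y s, |Q i x - Q i y| ^ q ∂m ≤ ε * s ^ n := by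
  haveI := isLocallyFiniteMeasure_of_twoSided h
  haveI := isOpenPosMeasure_of_twoSided h
  have hall := ae_all_iff.2 fun i =>
    ae_tendsto_setAverage_rpow (locDbl_of_twoSided h) hq (hQm i) (hQ i)
  filter_upwards [hall] with y hy i ε hε
  obtain ⟨c, hc, C, hC, h⟩ := h y 1
  have hev := (hy i).eventually (gt_mem_nhds (show (0 : ℝ) < ε / C by positivity))
  filter_upwards [hev, Ioo_mem_nhdsGT (one_pos (α := ℝ))] with s hs hs1
  have hs0 := hs1.1
  have h1 := h y (mem_closedBall_self zero_le_one) s hs1.1 hs1.2.le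
  have hlt : m (closedBall y s) < ∞ := h1.2.2.trans_lt ENNReal.ofReal_lt_top
  have hpos : 0 < m (closedBall y s) :=
    (measure_ball_pos m y hs1.1).trans_le (measure_mono ball_subset_closedBall)
  have hposr : 0 < m.real (closedBall y s) := ENNReal.toReal_pos hpos.ne' hlt.ne
  have hup : m.real (closedBall y s) ≤ C * s ^ n := by
    have := ENNReal.toReal_mono ENNReal.ofReal_ne_top h1.2.2
    rwa [ENNReal.toReal_ofReal (by positivity)] at this
  rw [setAverage_eq, smul_eq_mul, inv_mul_lt_iff₀ hposr] at hs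
  calc ∫ x in closedBall y s, |Q i x - Q i y| ^ q ∂m ≤ m.real (closedBall y s) * (ε / C) := hs.le
    _ ≤ C * s ^ n * (ε / C) := by gcongr
    _ = ε * s ^ n := by field_simp

end Vale.Agent.P233.H37
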